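import Vale.Agent.P196.Final

namespace Vale.Agent.Results.P196.FPSimpleAmen

theorem result : ∃ (G : Type) (_ : Group G), Infinite G ∧ Group.IsFinitelyPresented G ∧
    IsSimpleGroup G ∧ Vale.Agent.P196.Amenable G :=
  Vale.Agent.P196.final

end Vale.Agent.Results.P196.FPSimpleAmen
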